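import Vale.Agent.Lib.P171.Final

open MeasureTheory Filter Topology
open Vale.Agent.Lib.P171.Defs

/-- There is a stable, tempered, bounded radial pair potential on three-space, nonpositive beyond
distance one and vanishing at infinity, whose pressure at inverse temperature one exists for all
activities and is not differentiable at some activity. -/
theorem Vale.Agent.Results.P171.A_main.result :
    ∃ φ : ℝ → ℝ, Measurable φ ∧ (∃ M : ℝ, ∀ r : ℝ, 0 < r → |φ r| ≤ M) ∧ IsStable φ ∧ IsTempered φ ∧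
      (∀ r : ℝ, 1 ≤ r → φ r ≤ 0) ∧ Tendsto φ atTop (𝓝 0) ∧
      (∀ (L : ℝ) (N : ℕ), 0 ≤ L → Integrable (fun x : Fin N → R3 => Real.exp (-(1 * energy φ x)))
        (volume.restrict (Set.pi Set.univ fun _ : Fin N => box L))) ∧
      (∀ L z : ℝ, 0 ≤ L → 0 < z → Summable fun N : ℕ => z ^ N * canonicalZ φ 1 L N) ∧
      ∃ Pz : ℝ → ℝ,
        (∀ z : ℝ, 0 < z → Tendsto (fun L => finiteVolumePressure φ 1 L z) atTop (𝓝 (Pz z))) ∧
        ∃ z₀ : ℝ, 0 < z₀ ∧ ¬ DifferentiableAt ℝ Pz z₀ :=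
  Vale.Agent.Lib.P171.main
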